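import Mathlib

/-!
# P032: maximal families of open sets without unit distance

`Mx U`: the `U i` are open, without unit distance, their union is dense, and they cannot be
enlarged near the points of `XX U` by colours of the core of the palette.
-/

open Set Filter Topology Metric

noncomputable section

namespace Vale.Agent.P032.Six

/-- the palette -/
def Pal {k : ℕ} (U : Fin k → Set ℂ) (x : ℂ) : Set (Fin k) := {i | x ∈ closure (U i)}

/-- the points in no `U i` -/
def XX {k : ℕ} (U : Fin k → Set ℂ) : Set ℂ := {x | ∀ i, x ∉ U i}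

/-- A (relatively) maximal family of open sets without unit distance, with dense union.
The set `C z` of colours is the *core* of the palette: the closures of the `U i`, `i ∈ C z`, cover
a neighbourhood of `z`, and for `z ∈ XX U` and `i ∈ C z` the set `U i` cannot be enlarged
near `z`. -/
structure Mx {k : ℕ} (U : Fin k → Set ℂ) : Prop where
  isOpen : ∀ i, IsOpen (U i)
  dense : Dense (⋃ i, U i)
  free : ∀ i, ∀ x ∈ U i, ∀ y ∈ closure (U i), dist x y ≠ 1
  single : ∀ i x, Pal U x ⊆ {i} → x ∈ U i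
  core : ∃ C : ℂ → Set (Fin k), ∀ z,
    C z ⊆ Pal U z ∧ (∀ᶠ w in 𝓝 z, ∃ i ∈ C z, i ∈ Pal U w) ∧
    (z ∈ XX U → ∀ i ∈ C z, (∃ y, dist z y = 1 ∧ i ∈ Pal U y) ∧
      ∀ᶠ w in 𝓝 z, w ∈ interior (closure (U i)) → w ∈ U i)

/-- an open set without unit distance has no unit distance to its closure -/
theorem free_closure {V : Set ℂ} (hV : IsOpen V) (h : ∀ x ∈ V, ∀ y ∈ V, dist x y ≠ 1) :
    ∀ x ∈ V, ∀ y ∈ closure V, dist x y ≠ 1 := by
  intro x hx y hy hxy
  obtain ⟨r, hr, hball⟩ := Metric.isOpen_iff.1 hV x hx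
  obtain ⟨y', hy', hd⟩ := Metric.mem_closure_iff.1 hy r hr
  refine h (x + (y' - y)) (hball ?_) y' hy' ?_
  · rw [mem_ball, dist_eq_norm, add_sub_cancel_left, ← dist_eq_norm, dist_comm]
    exact hd
  · rw [dist_eq_norm] at hxy ⊢
    rw [← hxy]; congr 1; ring

/-- enlarging by a small disc -/
theorem free_union_ball {V : Set ℂ} (h : ∀ x ∈ V, ∀ y ∈ V, dist x y ≠ 1)
    {x : ℂ} (hx : ∀ y ∈ closure V, dist x y ≠ 1) :
    ∃ r > 0, ∀ p ∈ V ∪ ball x r, ∀ q ∈ V ∪ ball x r, dist p q ≠ 1 := by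
  -- the circle has positive distance from `V`
  have hs : IsCompact (sphere x (1 : ℝ)) := isCompact_sphere x 1
  have hdisj : Disjoint (sphere x (1 : ℝ)) (closure V) := by
    rw [Set.disjoint_left]
    intro y hy hyV
    exact hx y hyV (by rw [dist_comm]; exact hy)
  obtain ⟨m, hm, hmd⟩ := hdisj.exists_thickenings hs isClosed_closure
  refine ⟨min m (1 / 4), by positivity, ?_⟩
  have key : ∀ p ∈ ball x (min m (1 / 4)), ∀ q ∈ V, dist p q ≠ 1 := by
    intro p hp q hq hpq
    have hp1 : dist p x < m := lt_of_lt_of_le hp (min_le_left _ _)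
    -- the point `x + (q - p)` is on the circle and near `q`
    have h1 : x + (q - p) ∈ sphere x (1 : ℝ) := by
      rw [mem_sphere, dist_eq_norm, add_sub_cancel_left, ← dist_eq_norm, dist_comm]; exact hpq
    have h2 : q ∈ thickening m (sphere x (1 : ℝ)) := by
      rw [mem_thickening_iff]
      refine ⟨x + (q - p), h1, ?_⟩
      rw [dist_eq_norm]
      have : q - (x + (q - p)) = p - x := by ring
      rw [this, ← dist_eq_norm]; exact hp1
    have h3 : q ∈ thickening m (closure V) := self_subset_thickening hm _ (subset_closure hq)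
    exact Set.disjoint_left.1 hmd h2 h3
  intro p hp q hq
  rcases hp with hp | hp <;> rcases hq with hq | hq
  · exact h p hp q hq
  · rw [dist_comm]; exact key q hq p hp
  · exact key p hp q hq
  · intro hpq
    have h1 : dist p x < 1 / 4 := lt_of_lt_of_le hp (min_le_right _ _)
    have h2 : dist q x < 1 / 4 := lt_of_lt_of_le hq (min_le_right _ _)
    have h3 := dist_triangle_right p q x
    linarith

/-- every open set without unit distance is contained in a maximal one -/
theorem exists_maximal (V : Set ℂ) (hV : IsOpen V) (h : ∀ x ∈ V, ∀ y ∈ V, dist x y ≠ 1) :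
    ∃ W, V ⊆ W ∧ IsOpen W ∧ ∀ x, x ∈ W ↔ ∀ y ∈ closure W, dist x y ≠ 1 := by
  have hub : ∀ c ⊆ {W : Set ℂ | IsOpen W ∧ ∀ x ∈ W, ∀ y ∈ W, dist x y ≠ 1}, IsChain (· ⊆ ·) c →
      c.Nonempty → ∃ ub ∈ {W : Set ℂ | IsOpen W ∧ ∀ x ∈ W, ∀ y ∈ W, dist x y ≠ 1},
        ∀ s ∈ c, s ⊆ ub := by
    intro c hc hchain _
    refine ⟨⋃₀ c, ⟨isOpen_sUnion fun s hs => (hc hs).1, ?_⟩, fun s hs => subset_sUnion_of_mem hs⟩
    rintro x ⟨s, hs, hxs⟩ y ⟨t, ht, hyt⟩
    rcases hchain.total hs ht with hst | hst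
    · exact (hc ht).2 x (hst hxs) y hyt
    · exact (hc hs).2 x hxs y (hst hyt)
  obtain ⟨W, hVW, hW⟩ := zorn_subset_nonempty _ hub V ⟨hV, h⟩
  refine ⟨W, hVW, hW.prop.1, fun x => ⟨fun hx => free_closure hW.prop.1 hW.prop.2 x hx,
    fun hx => ?_⟩⟩
  obtain ⟨r, hr, hfree⟩ := free_union_ball hW.prop.2 hx
  have h1 := hW.le_of_ge ⟨hW.prop.1.union isOpen_ball, hfree⟩ subset_union_left
  exact h1 (Or.inr (mem_ball_self hr))

variable {k : ℕ} {U : Fin k → Set ℂ}

/-- palettes are upper semicontinuous -/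
theorem pal_nhd (U : Fin k → Set ℂ) (x : ℂ) : ∀ᶠ z in 𝓝 x, Pal U z ⊆ Pal U x := by
  have h1 : ∀ i, ∀ᶠ z in 𝓝 x, z ∈ closure (U i) → x ∈ closure (U i) := by
    intro i
    by_cases hx : x ∈ closure (U i)
    · exact Eventually.of_forall fun z _ => hx
    · filter_upwards [isClosed_closure.isOpen_compl.mem_nhds hx] with z hz hz'
      exact absurd hz' hz
  filter_upwards [eventually_all.2 h1] with z hz i hi
  exact hz i hi

theorem pal_ball (U : Fin k → Set ℂ) (x : ℂ) :
    ∃ r > 0, ∀ z, dist z x < r → Pal U z ⊆ Pal U x :=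
  Metric.eventually_nhds_iff.1 (pal_nhd U x) |>.imp fun _ h => ⟨h.1, fun _ hz => h.2 hz⟩

/-- the interior of the closure of a set which is at distance one from no point of its closure -/
theorem free_int_closure {V : Set ℂ} (h : ∀ x ∈ V, ∀ y ∈ closure V, dist x y ≠ 1) :
    ∀ y ∈ interior (closure V), ∀ z ∈ closure V, dist y z ≠ 1 := by
  intro y hy z hz hyz
  obtain ⟨ε, hε, hball⟩ := Metric.isOpen_iff.1 isOpen_interior y hy
  obtain ⟨z', hz', hzz⟩ := Metric.mem_closure_iff.1 hz ε hε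
  -- `y' = y + (z' - z)`
  have hy' : y + (z' - z) ∈ closure V := by
    refine interior_subset (hball ?_)
    rw [mem_ball, dist_eq_norm, add_sub_cancel_left, ← dist_eq_norm, dist_comm]
    exact hzz
  refine h z' hz' _ hy' ?_
  rw [dist_eq_norm] at hyz ⊢
  rw [← hyz, ← norm_neg]; congr 1; ring

theorem cover_of_dense (hd : Dense (⋃ i, U i)) (x : ℂ) : ∃ i, i ∈ Pal U x := by
  have h1 : x ∈ closure (⋃ i, U i) := hd x
  rw [closure_iUnion_of_finite] at h1
  simpa [Pal] using h1

/-- maximal families are a special case -/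
theorem Mx.of_max (hU : ∀ i, IsOpen (U i)) (hd : Dense (⋃ i, U i))
    (hmax : ∀ i x, x ∈ U i ↔ ∀ y ∈ closure (U i), dist x y ≠ 1) : Mx U := by
  have hint : ∀ i, interior (closure (U i)) = U i := fun i =>
    Subset.antisymm (fun y hy => (hmax i y).2
      (free_int_closure (fun x hx => (hmax i x).1 hx) y hy))
      (interior_maximal subset_closure (hU i))
  refine ⟨hU, hd, fun i x hx => (hmax i x).1 hx, ?_, Pal U, fun z => ⟨Subset.rfl, ?_, ?_⟩⟩
  · intro i x hx
    rw [← hint i, mem_interior_iff_mem_nhds]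
    filter_upwards [pal_nhd U x] with z hz
    obtain ⟨j, hj⟩ := cover_of_dense hd z
    have : j = i := by simpa using hx (hz hj)
    exact this ▸ hj
  · filter_upwards [pal_nhd U z] with w hw
    obtain ⟨j, hj⟩ := cover_of_dense hd w
    exact ⟨j, hw hj, hj⟩
  · intro hz i _
    refine ⟨?_, Eventually.of_forall fun w hw => by rwa [hint i] at hw⟩
    by_contra hcon
    push Not at hcon
    exact hz i ((hmax i z).2 fun y hy hxy => hcon y hxy hy)

/-- **Existence of maximal families.** -/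
theorem exists_Mx {k : ℕ} (V : Fin k → Set ℂ) (hV : ∀ i, IsOpen (V i))
    (h : ∀ i, ∀ x ∈ V i, ∀ y ∈ V i, dist x y ≠ 1) (hd : Dense (⋃ i, V i)) :
    ∃ U : Fin k → Set ℂ, Mx U ∧ ∀ i, V i ⊆ U i := by
  choose U hVU hU hmax using fun i => exists_maximal (V i) (hV i) (h i)
  exact ⟨U, Mx.of_max hU (hd.mono (iUnion_mono hVU)) hmax, hVU⟩

theorem mem_Pal {x : ℂ} {i : Fin k} : i ∈ Pal U x ↔ x ∈ closure (U i) := Iff.rfl

theorem Mx.cover (h : Mx U) (x : ℂ) : ∃ i, i ∈ Pal U x := cover_of_dense h.dense x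

theorem Mx.isClosed_XX (h : Mx U) : IsClosed (XX U) := by
  have : XX U = ⋂ i, (U i)ᶜ := by ext x; simp [XX]
  rw [this]
  exact isClosed_iInter fun i => (h.isOpen i).isClosed_compl

/-- `(N)`: a point at distance one from a point of `F_i` is not in `U_i` -/
theorem Mx.notMem (h : Mx U) {i : Fin k} {x y : ℂ} (hy : y ∈ closure (U i))
    (hxy : dist x y = 1) : x ∉ U i :=
  fun hx => h.free i x hx y hy hxy

theorem Mx.notMem' (h : Mx U) {i : Fin k} {x y : ℂ} (hx : x ∈ U i)
    (hxy : dist x y = 1) : i ∉ Pal U y :=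
  fun hy => h.free i x hx y hy hxy

/-- a point with only one colour is in the open set -/
theorem Mx.mem_of_pal (h : Mx U) {i : Fin k} {x : ℂ} (hx : Pal U x ⊆ {i}) : x ∈ U i :=
  h.single i x hx

/-- points of `XX` have at least two colours -/
theorem Mx.two (h : Mx U) {x : ℂ} (hx : x ∈ XX U) (i : Fin k) : ∃ j ∈ Pal U x, j ≠ i := by
  by_contra hcon
  push Not at hcon
  exact hx i (h.mem_of_pal fun j hj => by simpa using hcon j hj)

/-- `(W)`: a connected subset of `F_i` with points on both sides of `S(z)` keeps `z` out of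
`U i` -/
theorem Mx.wlemma (h : Mx U) {i : Fin k} {Q : Set ℂ} (hQ : IsPreconnected Q)
    (hQF : Q ⊆ closure (U i)) {z a b : ℂ} (ha : a ∈ Q) (hb : b ∈ Q) (ha1 : dist a z < 1)
    (hb1 : 1 < dist b z) : i ∉ Pal U z := by
  intro hz
  -- move `z` into `U i`
  obtain ⟨z', hz', hzz⟩ := Metric.mem_closure_iff.1 hz (min (1 - dist a z) (dist b z - 1))
    (lt_min (by linarith) (by linarith))
  have h1 : dist a z' < 1 := by
    have := dist_triangle a z z'
    have := lt_of_lt_of_le hzz (min_le_left _ _)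
    linarith
  have h2 : 1 < dist b z' := by
    have := dist_triangle b z' z
    have := lt_of_lt_of_le hzz (min_le_right _ _)
    rw [dist_comm z z'] at this
    linarith
  have hc : ContinuousOn (fun q => dist q z') Q := by fun_prop
  obtain ⟨q, hq, hq1⟩ := hQ.intermediate_value ha hb hc ⟨h1.le, h2.le⟩
  exact h.free i z' hz' q (hQF hq) (by rw [dist_comm]; exact hq1)

end Vale.Agent.P032.Six
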