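import Mathlib

/-!
# P032: crossing unit circles
-/

open Set Filter Topology Metric

noncomputable section

namespace Vale.Agent.P032.Six

/-- the point of the unit circle with argument `t` -/
def cis (t : ℝ) : ℂ := Complex.exp (t * Complex.I)

theorem norm_cis (t : ℝ) : ‖cis t‖ = 1 := by
  simp [cis, Complex.norm_exp_ofReal_mul_I]

theorem continuous_cis : Continuous cis := by
  unfold cis; fun_prop

theorem hasDerivAt_cis (t : ℝ) : HasDerivAt cis (Complex.I * cis t) t := by
  have h1 : HasDerivAt (fun s : ℝ => (s : ℂ) * Complex.I) (1 * Complex.I) t :=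
    (Complex.ofRealCLM.hasDerivAt (x := t)).mul_const _
  have h2 := (Complex.hasDerivAt_exp ((t : ℂ) * Complex.I)).comp t h1
  have h3 : Complex.I * cis t = Complex.exp ((t : ℂ) * Complex.I) * (1 * Complex.I) := by
    rw [cis, one_mul, mul_comm]
  rw [h3]
  exact h2

theorem exists_cis {u : ℂ} (hu : ‖u‖ = 1) : ∃ t, u = cis t :=
  ⟨u.arg, by
    have := Complex.norm_mul_exp_arg_mul_I u
    rw [hu] at this
    simpa [cis] using this.symm⟩

/-- `dist (z + cis t) z = 1` -/
theorem dist_add_cis (z : ℂ) (t : ℝ) : dist (z + cis t) z = 1 := by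
  rw [dist_eq_norm, add_sub_cancel_left, norm_cis]

/-- cross product -/
def cr (a b : ℂ) : ℝ := a.re * b.im - a.im * b.re

theorem sq_dist (a b : ℂ) : dist a b ^ 2 = (a.re - b.re) ^ 2 + (a.im - b.im) ^ 2 := by
  rw [Complex.dist_eq, Complex.sq_norm, Complex.normSq_apply]
  simp; ring

theorem dist_eq_one_iff (a b : ℂ) :
    dist a b = 1 ↔ (a.re - b.re) ^ 2 + (a.im - b.im) ^ 2 - 1 = 0 := by
  rw [← sq_dist]
  constructor
  · intro h; rw [h]; norm_num
  · intro h
    have h1 : dist a b ^ 2 = 1 := by linarith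
    have h2 := dist_nonneg (x := a) (y := b)
    nlinarith

theorem dist_lt_one_iff (a b : ℂ) :
    dist a b < 1 ↔ (a.re - b.re) ^ 2 + (a.im - b.im) ^ 2 - 1 < 0 := by
  rw [← sq_dist]
  have h2 := dist_nonneg (x := a) (y := b)
  constructor
  · intro h; nlinarith
  · intro h; nlinarith

theorem one_lt_dist_iff (a b : ℂ) :
    1 < dist a b ↔ 0 < (a.re - b.re) ^ 2 + (a.im - b.im) ^ 2 - 1 := by
  rw [← sq_dist]
  have h2 := dist_nonneg (x := a) (y := b)
  constructor
  · intro h; nlinarith
  · intro h; nlinarith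

/-- a function with non-zero derivative at a zero takes both signs near it -/
theorem both_signs {f : ℝ → ℝ} {d t0 : ℝ} (hf : HasDerivAt f d t0) (h0 : f t0 = 0) (hd : d ≠ 0)
    {η : ℝ} (hη : 0 < η) :
    ∃ t1 t2, |t1 - t0| < η ∧ |t2 - t0| < η ∧ f t1 < 0 ∧ 0 < f t2 := by
  wlog hpos : 0 < d generalizing f d
  · have hneg : 0 < -d := by
      rcases lt_or_gt_of_ne hd with h | h
      · linarith
      · exact absurd h hpos
    obtain ⟨t1, t2, h1, h2, h3, h4⟩ := this (f := fun t => -f t) hf.neg (by simp [h0])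
      (neg_ne_zero.2 hd) hneg
    exact ⟨t2, t1, h2, h1, by linarith, by linarith⟩
  have hs := hf.tendsto_slope
  have h1 : ∀ᶠ t in 𝓝[≠] t0, 0 < slope f t0 t := hs.eventually (lt_mem_nhds hpos)
  rw [eventually_nhdsWithin_iff, Metric.eventually_nhds_iff] at h1
  obtain ⟨e, he, h1⟩ := h1
  set m := min e η / 2 with hm
  have hm0 : 0 < m := by positivity
  have hme : m < e := by
    have := min_le_left e η; have h3 : 0 < min e η := lt_min he hη
    rw [hm]; linarith
  have hmη : m < η := by
    have := min_le_right e η; have h3 : 0 < min e η := lt_min he hη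
    rw [hm]; linarith
  refine ⟨t0 - m, t0 + m, by simpa [abs_of_pos hm0] using hmη,
    by simpa [abs_of_pos hm0] using hmη, ?_, ?_⟩
  · have := h1 (y := t0 - m) (by simpa [Real.dist_eq, abs_of_pos hm0] using hme)
      (by simp; linarith)
    rw [slope_def_field, h0] at this
    have h5 : t0 - m - t0 = -m := by ring
    rw [h5, sub_zero, div_neg, neg_pos] at this
    by_contra hcon
    push Not at hcon
    exact absurd this (not_lt.2 (div_nonneg hcon hm0.le))
  · have := h1 (y := t0 + m) (by simpa [Real.dist_eq, abs_of_pos hm0] using hme)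
      (by simp; linarith)
    rw [slope_def_field, h0] at this
    have h5 : t0 + m - t0 = m := by ring
    rw [h5, sub_zero] at this
    by_contra hcon
    push Not at hcon
    exact absurd this (not_lt.2 (div_nonpos_of_nonpos_of_nonneg hcon hm0.le))

/-- the derivative of the squared distance along a unit circle -/
theorem hasDerivAt_sq (c q : ℂ) (t0 : ℝ) :
    HasDerivAt (fun t : ℝ => ((c + cis t).re - q.re) ^ 2 + ((c + cis t).im - q.im) ^ 2 - 1)
      (2 * cr (cis t0) (c + cis t0 - q)) t0 := by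
  have hc := hasDerivAt_cis t0
  have h0 : HasDerivAt (fun t => c + cis t) (Complex.I * cis t0) t0 := hc.const_add c
  have hre : HasDerivAt (fun t => (c + cis t).re) (Complex.I * cis t0).re t0 :=
    Complex.reCLM.hasFDerivAt.comp_hasDerivAt t0 h0
  have him : HasDerivAt (fun t => (c + cis t).im) (Complex.I * cis t0).im t0 :=
    Complex.imCLM.hasFDerivAt.comp_hasDerivAt t0 h0
  have h := (((hre.sub_const q.re).pow 2).add ((him.sub_const q.im).pow 2)).sub_const (1 : ℝ)
  refine h.congr_deriv ?_
  simp [cr]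
  ring

/-- the same function has both signs near a transversal zero -/
theorem circle_signs {c q : ℂ} {t0 : ℝ} (h0 : dist (c + cis t0) q = 1)
    (hcr : cr (cis t0) (c + cis t0 - q) ≠ 0) {η : ℝ} (hη : 0 < η) :
    ∃ t1 t2, |t1 - t0| < η ∧ |t2 - t0| < η ∧ dist (c + cis t1) q < 1 ∧
      1 < dist (c + cis t2) q := by
  obtain ⟨t1, t2, h1, h2, h3, h4⟩ := both_signs (hasDerivAt_sq c q t0)
    ((dist_eq_one_iff _ _).1 h0) (by simpa using hcr) hη
  exact ⟨t1, t2, h1, h2, (dist_lt_one_iff _ _).2 h3, (one_lt_dist_iff _ _).2 h4⟩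

/-- **Crossing lemma**: the unit circle about `q` near `q₀` meets the unit circle about `c`
near a transversal intersection point. -/
theorem crossing {c q₀ : ℂ} {t0 : ℝ} (h0 : dist (c + cis t0) q₀ = 1)
    (hcr : cr (cis t0) (c + cis t0 - q₀) ≠ 0) {η : ℝ} (hη : 0 < η) :
    ∀ᶠ q in 𝓝 q₀, ∃ t, |t - t0| < η ∧ dist (c + cis t) q = 1 := by
  obtain ⟨t1, t2, h1, h2, h3, h4⟩ := circle_signs h0 hcr hη
  have e1 : ∀ᶠ q in 𝓝 q₀, dist (c + cis t1) q < 1 :=
    (continuous_const.dist continuous_id).continuousAt.eventually (Iio_mem_nhds h3)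
  have e2 : ∀ᶠ q in 𝓝 q₀, 1 < dist (c + cis t2) q :=
    (continuous_const.dist continuous_id).continuousAt.eventually (Ioi_mem_nhds h4)
  filter_upwards [e1, e2] with q hq1 hq2
  have hcont : ContinuousOn (fun t => dist (c + cis t) q) (uIcc t1 t2) :=
    ((continuous_const.add continuous_cis).dist continuous_const).continuousOn
  have hmem : (1 : ℝ) ∈ uIcc (dist (c + cis t1) q) (dist (c + cis t2) q) := by
    rw [uIcc_of_le (by linarith)]; exact ⟨hq1.le, hq2.le⟩
  obtain ⟨t, ht, ht1⟩ := intermediate_value_uIcc hcont hmem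
  refine ⟨t, ?_, ht1⟩
  rw [abs_lt] at *
  rcases le_total t1 t2 with h | h
  · rw [uIcc_of_le h] at ht
    exact ⟨by linarith [ht.1], by linarith [ht.2]⟩
  · rw [uIcc_of_ge h] at ht
    exact ⟨by linarith [ht.1], by linarith [ht.2]⟩

/-- two unit vectors with zero cross product are equal or opposite -/
theorem cr_zero {u v : ℂ} (hu : ‖u‖ = 1) (hv : ‖v‖ = 1) (h : cr u v = 0) : u = v ∨ u = -v := by
  have h1 : u.re ^ 2 + u.im ^ 2 = 1 := by
    have := Complex.sq_norm u; rw [hu, Complex.normSq_apply] at this; nlinarith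
  have h2 : v.re ^ 2 + v.im ^ 2 = 1 := by
    have := Complex.sq_norm v; rw [hv, Complex.normSq_apply] at this; nlinarith
  unfold cr at h
  have hd : (u.re * v.re + u.im * v.im) ^ 2 = 1 := by
    have : (u.re * v.re + u.im * v.im) ^ 2 + (u.re * v.im - u.im * v.re) ^ 2 =
      (u.re ^ 2 + u.im ^ 2) * (v.re ^ 2 + v.im ^ 2) := by ring
    rw [h, h1, h2] at this
    linarith
  have hd2 : (u.re * v.re + u.im * v.im - 1) * (u.re * v.re + u.im * v.im + 1) = 0 := by
    linarith
  rcases mul_eq_zero.1 hd2 with h3 | h3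
  · left
    have h4 : (u.re - v.re) ^ 2 + (u.im - v.im) ^ 2 = 0 := by linarith
    have h5 : u.re - v.re = 0 := by nlinarith [sq_nonneg (u.re - v.re), sq_nonneg (u.im - v.im)]
    have h6 : u.im - v.im = 0 := by nlinarith [sq_nonneg (u.re - v.re), sq_nonneg (u.im - v.im)]
    exact Complex.ext (by linarith) (by linarith)
  · right
    have h4 : (u.re + v.re) ^ 2 + (u.im + v.im) ^ 2 = 0 := by linarith
    have h5 : u.re + v.re = 0 := by nlinarith [sq_nonneg (u.re + v.re), sq_nonneg (u.im + v.im)]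
    have h6 : u.im + v.im = 0 := by nlinarith [sq_nonneg (u.re + v.re), sq_nonneg (u.im + v.im)]
    exact Complex.ext (by simp; linarith) (by simp; linarith)

/-- two different unit circles through a common point, centres not opposite: transversal -/
theorem cr_ne {z c q : ℂ} (hc : dist z c = 1) (hq : dist z q = 1) (h1 : c ≠ q)
    (h2 : c + q ≠ 2 * z) : cr (z - c) (z - q) ≠ 0 := by
  intro h
  rcases cr_zero (by rw [← dist_eq_norm]; exact hc) (by rw [← dist_eq_norm]; exact hq) h
    with h3 | h3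
  · exact h1 (by linear_combination -h3)
  · exact h2 (by linear_combination -h3)

end Vale.Agent.P032.Six
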