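import Mathlib
import Vale.Agent.P032.Six.Max
import Vale.Agent.P032.Six.Geo

/-!
# P032: the gap lemma and its consequences
-/

open Set Filter Topology Metric

noncomputable section

namespace Vale.Agent.P032.Six

variable {k : ℕ} {U : Fin k → Set ℂ}

/-- close to a point of a unit circle there are two points of the same circle which are
not collinear with the centre and a further point -/
theorem exists_generic {z p y : ℂ} (hp : dist p z = 1) {s : Set ℂ} (hs : s ∈ 𝓝[sphere z 1] p) :
    ∃ q ∈ s, dist q z = 1 ∧ q ≠ y ∧ q + y ≠ 2 * z ∧ s ∈ 𝓝[sphere z 1] q := by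
  obtain ⟨t, ht⟩ := exists_cis (u := p - z) (by rw [← dist_eq_norm]; exact hp)
  have hpz : p = z + cis t := by rw [← ht]; ring
  -- `s` is a neighbourhood of `q` for `q` near `p`
  obtain ⟨v, hv, hvs⟩ := mem_nhdsWithin_iff_exists_mem_nhds_inter.1 hs
  obtain ⟨w, hwv, hwo, hpw⟩ := _root_.mem_nhds_iff.1 hv
  have hcont : Continuous fun r : ℝ => z + cis r := continuous_const.add continuous_cis
  have hpre : (fun r : ℝ => z + cis r) ⁻¹' w ∈ 𝓝 t :=
    hcont.continuousAt.preimage_mem_nhds (by rw [← hpz]; exact hwo.mem_nhds hpw)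
  -- the parameter avoids two values modulo a discrete set: use injectivity near `t`
  obtain ⟨e, he, hball⟩ := Metric.mem_nhds_iff.1 hpre
  have hinj : ∀ a b : ℝ, |a - t| < min e 1 → |b - t| < min e 1 → cis a = cis b → a = b := by
    intro a b ha hb hab
    have ha1 : |a - t| < 1 := lt_of_lt_of_le ha (min_le_right _ _)
    have hb1 : |b - t| < 1 := lt_of_lt_of_le hb (min_le_right _ _)
    unfold cis at hab
    obtain ⟨n, hn⟩ := Complex.exp_eq_exp_iff_exists_int.1 hab
    have h1 : (a : ℂ) = b + n * (2 * Real.pi) := by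
      have hI := Complex.I_ne_zero
      have : ((a : ℂ) - (b + n * (2 * Real.pi))) * Complex.I = 0 := by
        linear_combination hn
      rcases mul_eq_zero.1 this with h | h
      · linear_combination h
      · exact absurd h hI
    have h2 : a = b + n * (2 * Real.pi) := by exact_mod_cast h1
    have h3 : |a - b| < 2 := by
      rw [abs_lt] at *
      constructor <;> linarith
    have hpi := Real.pi_gt_three
    have h4 : n = 0 := by
      by_contra hne
      have h5 : (1 : ℝ) ≤ |(n : ℝ)| := by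
        have : (1 : ℤ) ≤ |n| := Int.one_le_abs hne
        exact_mod_cast this
      have h6 : |a - b| = |(n : ℝ)| * (2 * Real.pi) := by
        rw [h2, add_sub_cancel_left, abs_mul, abs_of_pos (by positivity : (0 : ℝ) < 2 * Real.pi)]
      nlinarith
    rw [h2, h4]; simp
  set m := min e 1 with hm
  have hm0 : 0 < m := lt_min he one_pos
  have hgood : ∀ j : ℝ, 0 < j → j < 1 → |t + j * m - t| < m := by
    intro j hj0 hj1
    rw [add_sub_cancel_left, abs_of_pos (by positivity)]
    nlinarith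
  -- three candidates
  have hcand : ∃ j : ℝ, 0 < j ∧ j < 1 ∧ z + cis (t + j * m) ≠ y ∧
      (z + cis (t + j * m)) + y ≠ 2 * z := by
    by_contra hcon
    push Not at hcon
    have key : ∀ j : ℝ, 0 < j → j < 1 → cis (t + j * m) = y - z ∨ cis (t + j * m) = z - y := by
      intro j h0 h1
      by_cases h : z + cis (t + j * m) = y
      · left; rw [← h]; ring
      · right
        have := hcon j h0 h1 h
        linear_combination this
    have hne : ∀ i j : ℝ, 0 < i → i < 1 → 0 < j → j < 1 → i ≠ j →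
        cis (t + i * m) ≠ cis (t + j * m) := by
      intro i j hi0 hi1 hj0 hj1 hij h
      have := hinj _ _ (hgood i hi0 hi1) (hgood j hj0 hj1) h
      exact hij (mul_right_cancel₀ hm0.ne' (by linarith))
    have k1 := key (1/4) (by norm_num) (by norm_num)
    have k2 := key (1/2) (by norm_num) (by norm_num)
    have k3 := key (3/4) (by norm_num) (by norm_num)
    have n12 := hne (1/4) (1/2) (by norm_num) (by norm_num) (by norm_num) (by norm_num)
      (by norm_num)
    have n13 := hne (1/4) (3/4) (by norm_num) (by norm_num) (by norm_num) (by norm_num)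
      (by norm_num)
    have n23 := hne (1/2) (3/4) (by norm_num) (by norm_num) (by norm_num) (by norm_num)
      (by norm_num)
    rcases k1 with k1 | k1 <;> rcases k2 with k2 | k2 <;> rcases k3 with k3 | k3
    all_goals first
      | exact n12 (k1.trans k2.symm)
      | exact n13 (k1.trans k3.symm)
      | exact n23 (k2.trans k3.symm)
  obtain ⟨j, hj0, hj1, hj2, hj3⟩ := hcand
  have hmem : z + cis (t + j * m) ∈ w := by
    refine hball ?_
    rw [mem_ball, Real.dist_eq]
    exact lt_of_lt_of_le (hgood j hj0 hj1) (min_le_left _ _)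
  refine ⟨z + cis (t + j * m), hvs ⟨hwv hmem, dist_add_cis _ _⟩, dist_add_cis _ _, hj2, hj3, ?_⟩
  exact mem_nhdsWithin_iff_exists_mem_nhds_inter.2
    ⟨w, hwo.mem_nhds hmem, fun q hq => hvs ⟨hwv hq.1, hq.2⟩⟩

/-- points of an open set off a unit circle are dense in it -/
theorem exists_off {V : Set ℂ} (hV : IsOpen V) {y z : ℂ} (hy : y ∈ closure V)
    {s : Set ℂ} (hs : s ∈ 𝓝 y) : ∃ g ∈ V ∩ s, dist g z ≠ 1 := by
  obtain ⟨w, hws, hwo, hyw⟩ := _root_.mem_nhds_iff.1 hs
  obtain ⟨g, hgw, hgV⟩ := mem_closure_iff.1 hy w hwo hyw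
  by_cases hg : dist g z = 1
  · obtain ⟨r, hr, hball⟩ := Metric.isOpen_iff.1 (hV.inter hwo) g ⟨hgV, hgw⟩
    -- move `g` radially
    set ρ := min r 1 / 2 with hρ
    have h0 : 0 < ρ := by positivity
    have h1 : ρ < r := by
      have := min_le_left r 1; have h3 : 0 < min r 1 := lt_min hr one_pos
      rw [hρ]; linarith
    have hgz : ‖g - z‖ = 1 := by rw [← dist_eq_norm]; exact hg
    refine ⟨g + ρ * (g - z), ⟨(hball ?_).1, hws (hball ?_).2⟩, ?_⟩
    · rw [mem_ball, dist_eq_norm, add_sub_cancel_left, norm_mul, hgz, mul_one,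
        Complex.norm_real, Real.norm_of_nonneg h0.le]
      exact h1
    · rw [mem_ball, dist_eq_norm, add_sub_cancel_left, norm_mul, hgz, mul_one,
        Complex.norm_real, Real.norm_of_nonneg h0.le]
      exact h1
    · have : g + ρ * (g - z) - z = ((1 + ρ : ℝ) : ℂ) * (g - z) := by push_cast; ring
      rw [dist_eq_norm, this, norm_mul, hgz, mul_one, Complex.norm_real,
        Real.norm_of_nonneg (by positivity)]
      linarith
  · exact ⟨g, ⟨hgV, hws hgw⟩, hg⟩

/-- The swept double wedge: if the unit circle about `z` carries all colours of `P` on an arc,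
then every open set `V` with a point `y` at distance one from `z` in its closure has a point `g`
whose unit circle contains a point `w`, arbitrarily near `z`, without the colours of `P`. -/
theorem Mx.gap_pt (h : Mx U) {z p y : ℂ} (hp : dist p z = 1) {P : Set (Fin k)}
    (hJ : ∀ᶠ q in 𝓝[sphere z 1] p, P ⊆ Pal U q) {V : Set ℂ} (hV : IsOpen V) (hzy : dist z y = 1)
    (hly : y ∈ closure V) {N : Set ℂ} (hN : N ∈ 𝓝 z) :
    ∃ g ∈ V, ∃ w ∈ N, dist w g = 1 ∧ ∀ i ∈ P, w ∉ closure (U i) := by
  obtain ⟨q, hq, hqz, hqy, hqy2, hJq⟩ := exists_generic (y := y) hp hJ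
  have hJq : ∀ᶠ q' in 𝓝[sphere z 1] q, P ⊆ Pal U q' := hJq
  have hzq : dist z q = 1 := by rw [dist_comm]; exact hqz
  obtain ⟨θ, hθ⟩ := exists_cis (u := z - q) (by rw [← dist_eq_norm]; exact hzq)
  have hzθ : q + cis θ = z := by rw [← hθ]; ring
  obtain ⟨t1, ht1⟩ := exists_cis (u := q - z) (by rw [← dist_eq_norm]; exact hqz)
  have hqt : z + cis t1 = q := by rw [← ht1]; ring
  -- neighbourhood of `z`
  obtain ⟨r, hr, hrp⟩ := Metric.mem_nhds_iff.1 hN
  -- angles so small that `q + cis t` is within `min r 1` of `z`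
  have hc : ContinuousAt (fun t => q + cis t) θ :=
    (continuous_const.add continuous_cis).continuousAt
  obtain ⟨η, hη, hηr⟩ := Metric.continuousAt_iff.1 hc (min r 1) (lt_min hr one_pos)
  have hcr : cr (cis θ) (q + cis θ - y) ≠ 0 := by
    rw [hzθ, ← hθ]
    exact cr_ne hzq hzy hqy hqy2
  have hcross := crossing (c := q) (q₀ := y) (t0 := θ) (by rw [hzθ]; exact hzy) hcr hη
  obtain ⟨g, ⟨hgU, ⟨t, htθ, hgt⟩⟩, hgz⟩ := exists_off hV (z := z) hly hcross
  set w := q + cis t with hw
  have hwz : dist w z < min r 1 := by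
    have := hηr (x := t) (by rw [Real.dist_eq]; exact htθ)
    simp only [hzθ] at this
    exact this
  have hwg : dist g w = 1 := by rw [dist_comm]; exact hgt
  have hwne : w ≠ z := by
    intro hwz'
    rw [hwz'] at hwg
    exact hgz hwg
  have hwq : dist w q = 1 := dist_add_cis q t
  -- sweeping: a neighbourhood of `w` avoids `U i`, `i ∈ P`
  have hcr2 : cr (cis t1) (z + cis t1 - w) ≠ 0 := by
    rw [hqt, ← ht1]
    have e1 := cr_ne (z := q) (c := z) (q := w) hqz (by rw [dist_comm]; exact hwq) hwne.symm (by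
      intro h2
      have h3 : w - z = 2 * (q - z) := by linear_combination h2
      have h4 : dist w z = 2 := by
        rw [dist_eq_norm, h3, norm_mul, ← dist_eq_norm, hqz]; simp
      have h5 := lt_of_lt_of_le hwz (min_le_right _ _)
      linarith)
    exact e1
  obtain ⟨v, hv, hvs⟩ := mem_nhdsWithin_iff_exists_mem_nhds_inter.1 hJq
  have hc2 : ContinuousAt (fun t => z + cis t) t1 :=
    (continuous_const.add continuous_cis).continuousAt
  have hpre : (fun t => z + cis t) ⁻¹' v ∈ 𝓝 t1 := hc2.preimage_mem_nhds (by rw [hqt]; exact hv)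
  obtain ⟨η2, hη2, hball2⟩ := Metric.mem_nhds_iff.1 hpre
  have hsweep := crossing (c := z) (q₀ := w) (t0 := t1)
    (by rw [hqt, dist_comm]; exact hwq) hcr2 hη2
  refine ⟨g, hgU, w, hrp (lt_of_lt_of_le hwz (min_le_left _ _)), by rw [dist_comm]; exact hwg, ?_⟩
  intro i hi hwi
  obtain ⟨w', hw', hw'U⟩ := mem_closure_iff_nhds.1 hwi _ hsweep
  obtain ⟨t', ht', ht'1⟩ := hw'
  have hmem : z + cis t' ∈ v ∩ sphere z 1 :=
    ⟨hball2 (by rw [mem_ball, Real.dist_eq]; exact ht'), dist_add_cis z t'⟩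
  have hi' : i ∈ Pal U (z + cis t') := hvs hmem hi
  exact h.notMem' hw'U (by rw [dist_comm]; exact ht'1) hi'

/-- **Gap lemma**. If the unit circle about `z ∈ X` carries all colours of `P` on an arc, then
at least two colours of the palette of `z` are not in `P`. -/
theorem Mx.gap (h : Mx U) {z p : ℂ} (hz : z ∈ XX U) (hp : dist p z = 1) {P : Set (Fin k)}
    (hJ : ∀ᶠ q in 𝓝[sphere z 1] p, P ⊆ Pal U q) (l : Fin k) : ¬ Pal U z ⊆ insert l P := by
  intro hsub
  obtain ⟨C, hC⟩ := h.core
  obtain ⟨hCP, hcov, hpart⟩ := hC z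
  -- a core colour left on the wedge is `l`
  have key : ∀ w, (∃ i ∈ C z, i ∈ Pal U w) → (∀ i ∈ P, w ∉ closure (U i)) →
      l ∈ C z ∧ l ∈ Pal U w := by
    rintro w ⟨i, hiC, hiw⟩ hw
    rcases hsub (hCP hiC) with rfl | hiP
    · exact ⟨hiC, hiw⟩
    · exact absurd hiw (hw i hiP)
  obtain ⟨-, -, w0, hw0, -, hw0P⟩ := h.gap_pt (y := z + 1) hp hJ isOpen_univ
    (by rw [dist_eq_norm]; simp) (by rw [closure_univ]; trivial) hcov
  obtain ⟨y, hzy, hly⟩ := (hpart hz l (key w0 hw0 hw0P).1).1
  obtain ⟨g, hgU, w, hw, hwg, hwP⟩ := h.gap_pt hp hJ (h.isOpen l) hzy hly hcov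
  exact h.notMem' hgU (by rw [dist_comm]; exact hwg) (key w hw hwP).2

/-- if the circle about `z` avoids the open sets of the colours `i, j` of `Pal y` near its
point `y`, and the core of `y` is contained in `{i, j}`, then it carries `i` and `j` near `y` -/
theorem Mx.both (h : Mx U) {z y : ℂ} {i j l : Fin k} (hy : y ∈ XX U) (hyz : dist y z = 1)
    (hi : i ∈ Pal U z) (hj : j ∈ Pal U z) (hsub : Pal U y ⊆ {i, j, l})
    (hnl : ¬ ∃ v, dist y v = 1 ∧ l ∈ Pal U v) :
    ∀ᶠ q in 𝓝[sphere z 1] y, i ∈ Pal U q ∧ j ∈ Pal U q := by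
  obtain ⟨C, hC⟩ := h.core
  obtain ⟨hCP, hcov, hpart⟩ := hC y
  have hpart := hpart hy
  have hC2 : C y ⊆ {i, j} := by
    intro m hm
    rcases hsub (hCP hm) with h1 | h1 | h1
    · exact Or.inl h1
    · exact Or.inr h1
    · rw [mem_singleton_iff] at h1
      subst h1
      exact absurd (hpart m hm).1 hnl
  -- a colour of `C y` which is alone in the core would give `y ∈ U`
  have hone : ∀ a b, C y ⊆ {a, b} → b ∉ C y → False := by
    intro a b hab hb
    have h1 : C y ⊆ {a} := fun m hm => by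
      rcases hab hm with h2 | h2
      · exact h2
      · rw [mem_singleton_iff] at h2
        exact absurd (h2 ▸ hm) hb
    have h2 : ∀ᶠ w in 𝓝 y, w ∈ closure (U a) := by
      filter_upwards [hcov] with w hw
      obtain ⟨m, hm, hmw⟩ := hw
      have := h1 hm
      rw [mem_singleton_iff] at this
      exact this ▸ hmw
    have h3 : a ∈ C y := by
      obtain ⟨m, hm, -⟩ := hcov.self_of_nhds
      have := h1 hm
      rw [mem_singleton_iff] at this
      exact this ▸ hm
    exact hy a ((hpart a h3).2.self_of_nhds (mem_interior_iff_mem_nhds.2 h2))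
  have hiC : i ∈ C y := by
    by_contra hcon
    exact hone j i (by rw [Set.pair_comm]; exact hC2) hcon
  have hjC : j ∈ C y := by
    by_contra hcon
    exact hone i j hC2 hcon
  have hcov2 : ∀ᶠ q in 𝓝 y, ∀ᶠ w in 𝓝 q, w ∈ closure (U i) ∨ w ∈ closure (U j) := by
    refine eventually_eventually_nhds.2 ?_
    filter_upwards [hcov] with w hw
    obtain ⟨m, hm, hmw⟩ := hw
    rcases hC2 hm with h1 | h1
    · exact Or.inl (h1 ▸ hmw)
    · rw [mem_singleton_iff] at h1
      exact Or.inr (h1 ▸ hmw)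
  filter_upwards [mem_nhdsWithin_of_mem_nhds hcov2, mem_nhdsWithin_of_mem_nhds (hpart i hiC).2,
    mem_nhdsWithin_of_mem_nhds (hpart j hjC).2, self_mem_nhdsWithin] with q h1 h2 h3 h4
  have hqz : dist q z = 1 := h4
  constructor
  · by_contra hcon
    have h5 : q ∈ interior (closure (U j)) := by
      rw [mem_interior_iff_mem_nhds]
      filter_upwards [h1, isClosed_closure.isOpen_compl.mem_nhds hcon] with w h6 h7
      exact h6.resolve_left h7
    exact h.notMem' (h3 h5) hqz hj
  · by_contra hcon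
    have h5 : q ∈ interior (closure (U i)) := by
      rw [mem_interior_iff_mem_nhds]
      filter_upwards [h1, isClosed_closure.isOpen_compl.mem_nhds hcon] with w h6 h7
      exact h6.resolve_right h7
    exact h.notMem' (h2 h5) hqz hi

/-- the partner of the third colour (used in the outer lemma): `x, y ∈ C_ij`, `|x - y| = 1`,
`Pal y ⊆ {i, j, l}`, and `Pal x` has at most three colours -/
theorem Mx.partner_third (h : Mx U) {x y : ℂ} {i j l : Fin k} (hij : i ≠ j) (hx : x ∈ XX U)
    (hy : y ∈ XX U) (hyx : dist y x = 1) (hi : i ∈ Pal U x) (hj : j ∈ Pal U x)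
    (h3 : (Pal U x).ncard ≤ 3) (hsub : Pal U y ⊆ {i, j, l}) :
    ∃ v, dist y v = 1 ∧ l ∈ Pal U v := by
  by_contra hcon
  have h1 := h.both hy hyx hi hj hsub hcon
  -- the third colour of `x`
  have hpair : ({i, j} : Set (Fin k)) ⊆ Pal U x := by
    rintro m (rfl | rfl)
    · exact hi
    · exact hj
  have hdiff : (Pal U x \ {i, j}).ncard ≤ 1 := by
    have h2 := Set.ncard_sdiff hpair (Set.toFinite _)
    rw [Set.ncard_pair hij] at h2
    omega
  have hins : ∃ m, Pal U x ⊆ insert m {i, j} := by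
    rcases Set.eq_empty_or_nonempty (Pal U x \ {i, j}) with he | ⟨m, hm⟩
    · exact ⟨i, (sdiff_eq_empty.1 he).trans (subset_insert _ _)⟩
    · refine ⟨m, fun m' hm' => ?_⟩
      by_cases hmq : m' ∈ ({i, j} : Set (Fin k))
      · exact Or.inr hmq
      · left
        exact (Set.ncard_le_one (Set.toFinite _)).1 hdiff m' ⟨hm', hmq⟩ m hm
  obtain ⟨m, hm⟩ := hins
  refine h.gap hx hyx (P := {i, j}) (h1.mono fun q hq => ?_) m hm
  rintro m' (rfl | rfl)
  · exact hq.1
  · exact hq.2

/-- the palette is locally constant near some point of any relative neighbourhood -/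
theorem exists_const (U : Fin k → Set ℂ) {S : Set ℂ} {y : ℂ} (hy : y ∈ S) {V : Set ℂ}
    (hV : V ∈ 𝓝 y) :
    ∃ q ∈ V ∩ S, ∀ᶠ q' in 𝓝[S] q, Pal U q' = Pal U q := by
  obtain ⟨w, hwV, hwo, hyw⟩ := _root_.mem_nhds_iff.1 hV
  -- minimal cardinality
  have hne : ((fun q => (Pal U q).ncard) '' (w ∩ S)).Nonempty := ⟨_, y, ⟨hyw, hy⟩, rfl⟩
  obtain ⟨_, ⟨q, ⟨hqw, hqS⟩, rfl⟩, hqmin⟩ :=
    WellFounded.has_min (r := ((· < ·) : ℕ → ℕ → Prop)) wellFounded_lt _ hne
  have hmin : ∀ q' ∈ w ∩ S, (Pal U q).ncard ≤ (Pal U q').ncard := by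
    intro q' hq'
    exact not_lt.1 (hqmin _ ⟨q', hq', rfl⟩)
  refine ⟨q, ⟨hwV hqw, hqS⟩, ?_⟩
  filter_upwards [mem_nhdsWithin_of_mem_nhds (hwo.mem_nhds hqw),
    mem_nhdsWithin_of_mem_nhds (pal_nhd U q), self_mem_nhdsWithin] with q' h1 h2 h3
  exact Set.eq_of_subset_of_ncard_le h2 (hmin q' ⟨h1, h3⟩) (Set.toFinite _)

/-- near a point `y` of `S(x)`, all palettes inside `Pal x`: the points are in `X` -/
theorem Mx.mem_XX_of_circle (h : Mx U) {x q : ℂ} (hq : dist q x = 1)
    (hsub : Pal U q ⊆ Pal U x) : q ∈ XX U := by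
  intro i hi
  exact h.notMem' hi hq (hsub (subset_closure hi))

/-- **[2]**: palettes of size at most three are not contained at distance one -/
theorem Mx.not_sub (h : Mx U) {x y : ℂ} (hx : x ∈ XX U) (hxy : dist y x = 1)
    (h3 : (Pal U x).ncard ≤ 3) : ¬ Pal U y ⊆ Pal U x := by
  intro hsub
  have hyS : y ∈ sphere x (1 : ℝ) := hxy
  obtain ⟨q, ⟨hq1, hq2⟩, hq3⟩ := exists_const U hyS (pal_nhd U y)
  have hq1 : Pal U q ⊆ Pal U y := hq1
  have hqx : dist q x = 1 := hq2
  have hqsub : Pal U q ⊆ Pal U x := hq1.trans hsub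
  have hqX := h.mem_XX_of_circle hqx hqsub
  -- two colours at `q`
  obtain ⟨i, hi⟩ := h.cover q
  obtain ⟨j, hj, hji⟩ := h.two hqX i
  have h2 : 2 ≤ (Pal U q).ncard := by
    have h4 : ({i, j} : Set (Fin k)) ⊆ Pal U q := by
      rintro m (rfl | rfl)
      · exact hi
      · exact hj
    have h5 := Set.ncard_le_ncard h4 (Set.toFinite _)
    rwa [Set.ncard_pair hji.symm] at h5
  -- at most one colour missing
  have hdiff : (Pal U x \ Pal U q).ncard ≤ 1 := by
    have := Set.ncard_sdiff hqsub (Set.toFinite _)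
    omega
  have hins : ∃ l, Pal U x ⊆ insert l (Pal U q) := by
    rcases Set.eq_empty_or_nonempty (Pal U x \ Pal U q) with he | ⟨l, hl⟩
    · exact ⟨i, (sdiff_eq_empty.1 he).trans (subset_insert _ _)⟩
    · refine ⟨l, fun m hm => ?_⟩
      by_cases hmq : m ∈ Pal U q
      · exact Or.inr hmq
      · left
        exact (Set.ncard_le_one (Set.toFinite _)).1 hdiff m ⟨hm, hmq⟩ l hl
  obtain ⟨l, hl⟩ := hins
  exact h.gap hx hqx (hq3.mono fun q' hq' => hq'.symm.subset) l hl

/-- `(N)` along a circle: near `y` the circle about `x` carries only colours of `Pal y`, and none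
of the open sets of `Pal x` -/
theorem Mx.lemmaX0 (h : Mx U) {u p : ℂ} {t : Fin k} (hu : u ∈ XX U)
    (h3 : (Pal U u).ncard ≤ 3) (ht : Pal U p ⊆ insert t (Pal U u)) :
    ∀ᶠ q in 𝓝[sphere u 1] p, t ∈ Pal U q := by
  filter_upwards [mem_nhdsWithin_of_mem_nhds (pal_nhd U p), self_mem_nhdsWithin] with q h1 h2
  by_contra hcon
  refine h.not_sub hu (y := q) h2 h3 fun m hm => ?_
  rcases ht (h1 hm) with rfl | h4
  · exact absurd hm hcon
  · exact h4

/-- a colour carried by an arc through `p` of the circle about `u` has its partners of `p`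
on the line `pu` -/
theorem Mx.partner_line (h : Mx U) {u p v : ℂ} {t : Fin k} (hup : dist p u = 1)
    (hJ : ∀ᶠ q in 𝓝[sphere u 1] p, t ∈ Pal U q) (hv : dist p v = 1) (htv : t ∈ Pal U v) :
    v = u ∨ v + u = 2 * p := by
  by_contra hcon
  push Not at hcon
  obtain ⟨hne, hne2⟩ := hcon
  obtain ⟨θ, hθ⟩ := exists_cis (u := p - u) (by rw [← dist_eq_norm]; exact hup)
  have hpθ : u + cis θ = p := by rw [← hθ]; ring
  obtain ⟨s, hs, hsub⟩ := mem_nhdsWithin_iff_exists_mem_nhds_inter.1 hJ
  have hc : ContinuousAt (fun t => u + cis t) θ :=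
    (continuous_const.add continuous_cis).continuousAt
  have hpre : (fun t => u + cis t) ⁻¹' s ∈ 𝓝 θ := hc.preimage_mem_nhds (by rw [hpθ]; exact hs)
  obtain ⟨η, hη, hball⟩ := Metric.mem_nhds_iff.1 hpre
  have hcr : cr (cis θ) (u + cis θ - v) ≠ 0 := by
    rw [hpθ, ← hθ]
    exact cr_ne hup hv hne.symm (by rw [add_comm]; exact hne2)
  obtain ⟨t1, t2, h1, h2, h3, h4⟩ := circle_signs (c := u) (q := v) (t0 := θ)
    (by rw [hpθ]; exact hv) hcr hη
  have hQ : IsPreconnected ((fun t => u + cis t) '' ball θ η) :=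
    (convex_ball θ η).isPreconnected.image _
      (continuous_const.add continuous_cis).continuousOn
  have hm1 : t1 ∈ ball θ η := by rw [mem_ball, Real.dist_eq]; exact h1
  have hm2 : t2 ∈ ball θ η := by rw [mem_ball, Real.dist_eq]; exact h2
  refine h.wlemma (i := t) hQ ?_ (z := v) ⟨t1, hm1, rfl⟩ ⟨t2, hm2, rfl⟩ h3 h4 htv
  rintro _ ⟨r, hr, rfl⟩
  exact hsub ⟨hball hr, dist_add_cis u r⟩

/-- **Lemma X** -/
theorem Mx.lemmaX (h : Mx U) {u p v : ℂ} {t : Fin k} (hu : u ∈ XX U) (hup : dist p u = 1)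
    (h3 : (Pal U u).ncard ≤ 3) (ht : Pal U p ⊆ insert t (Pal U u)) (hv : dist p v = 1)
    (htv : t ∈ Pal U v) : v = u ∨ v + u = 2 * p :=
  h.partner_line hup (h.lemmaX0 hu h3 ht) hv htv

/-- **Lemma B**: partners of a two-coloured point are collinear with it -/
theorem Mx.lemmaB (h : Mx U) {x y y' : ℂ} {i j : Fin k} (hx : Pal U x ⊆ {i, j})
    (hy : dist x y = 1) (hy' : dist x y' = 1) (hi : i ∈ Pal U y) (hj : j ∈ Pal U y') :
    y' = y ∨ y' + y = 2 * x := by
  refine h.partner_line (u := y) (p := x) (t := j) hy ?_ hy' hj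
  filter_upwards [mem_nhdsWithin_of_mem_nhds (pal_nhd U x), self_mem_nhdsWithin] with q h1 h2
  by_contra hcon
  have h4 : Pal U q ⊆ {i} := by
    intro m hm
    rcases hx (h1 hm) with h5 | h5
    · exact h5
    · exact absurd (h5 ▸ hm) hcon
  exact h.notMem' (h.mem_of_pal h4) h2 hi

/-- **[5]**: two three-coloured points with complementary palettes at distance less than two:
the points at distance one from both have two colours of each -/
theorem Mx.five (h : Mx U) {u u' q : ℂ} (hu' : u' ∈ XX U)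
    (h3' : (Pal U u').ncard ≤ 3)
    (hcov : ∀ i, i ∈ Pal U u ∨ i ∈ Pal U u') (hne : u ≠ u')
    (hq : dist q u = 1) (hq' : dist q u' = 1) (hne2 : u + u' ≠ 2 * q) (s : Fin k) :
    ∃ t ∈ Pal U q, t ∈ Pal U u ∧ t ≠ s := by
  by_contra hcon
  push Not at hcon
  -- then `Pal q ⊆ insert s (Pal u')`
  have hsub : Pal U q ⊆ insert s (Pal U u') := by
    intro m hm
    rcases hcov m with h1 | h1
    · exact Or.inl (hcon m hm h1)
    · exact Or.inr h1
  by_cases hsu : s ∈ Pal U u
  · have := h.lemmaX hu' hq' h3' hsub hq hsu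
    rcases this with h1 | h1
    · exact hne h1
    · exact hne2 h1
  · refine h.not_sub hu' hq' h3' fun m hm => ?_
    rcases hcov m with h1 | h1
    · exact absurd (hcon m hm h1 ▸ h1) hsu
    · exact h1

end Vale.Agent.P032.Six
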