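import Mathlib
import Vale.Agent.P032.Six.Gap

/-!
# P032: the reduced palettes

For a maximal family the sets `U i` may overlap.  `Kst U x` is the palette `Pal U x` at the points
of `XX U`; at the other points it consists of the `i` for which `U i` contains the largest disc
about `x`.  The sets `{x | i ∈ Kst U x}` are a closed cover.
-/

open Set Filter Topology Metric

noncomputable section

namespace Vale.Agent.P032.Six

variable {k : ℕ} {U : Fin k → Set ℂ}

/-- the distance to the complement of `U i` -/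
def ff (U : Fin k → Set ℂ) (i : Fin k) (x : ℂ) : ℝ := infDist x (U i)ᶜ

/-- the reduced palette -/
def Kst (U : Fin k → Set ℂ) (x : ℂ) : Set (Fin k) := {i | i ∈ Pal U x ∧ ∀ j, ff U j x ≤ ff U i x}

theorem ff_nonneg (i : Fin k) (x : ℂ) : 0 ≤ ff U i x := infDist_nonneg

theorem ff_zero {i : Fin k} {x : ℂ} (hx : x ∉ U i) : ff U i x = 0 :=
  infDist_zero_of_mem hx

theorem Mx.ff_pos (h : Mx U) {i : Fin k} {x : ℂ} (hx : x ∈ U i) : 0 < ff U i x := by
  have hne : (U i)ᶜ.Nonempty := by
    refine ⟨x + 1, fun h1 => ?_⟩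
    have h2 := h.free i x hx (x + 1) (subset_closure h1)
    exact h2 (by rw [dist_eq_norm]; simp)
  exact ((h.isOpen i).isClosed_compl.notMem_iff_infDist_pos hne).1 (by simpa using hx)

theorem continuous_ff (i : Fin k) : Continuous (ff U i) := continuous_infDist_pt _

theorem Kst_sub (x : ℂ) : Kst U x ⊆ Pal U x := fun _ h => h.1

theorem Kst_XX {x : ℂ} (hx : x ∈ XX U) : Kst U x = Pal U x := by
  refine Subset.antisymm (Kst_sub x) fun i hi => ⟨hi, fun j => ?_⟩
  rw [ff_zero (hx j)]
  exact ff_nonneg i x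

theorem Mx.Kst_mem (h : Mx U) {x : ℂ} (hx : x ∉ XX U) {i : Fin k} (hi : i ∈ Kst U x) :
    x ∈ U i := by
  by_contra hcon
  apply hx
  intro j hj
  have h1 := hi.2 j
  rw [ff_zero hcon] at h1
  exact absurd (h.ff_pos hj) (not_lt.2 h1)

theorem Mx.Kst_nonempty (h : Mx U) (x : ℂ) : (Kst U x).Nonempty := by
  obtain ⟨i0, hi0⟩ := h.cover x
  by_cases hx : x ∈ XX U
  · exact ⟨i0, (Kst_XX hx).symm ▸ hi0⟩
  · have : Nonempty (Fin k) := ⟨i0⟩
    obtain ⟨i, hi⟩ := Finite.exists_max fun j => ff U j x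
    refine ⟨i, ?_, hi⟩
    have h1 : ∃ j, x ∈ U j := by
      by_contra hcon
      push Not at hcon
      exact hx hcon
    obtain ⟨j, hj⟩ := h1
    have h2 : 0 < ff U i x := lt_of_lt_of_le (h.ff_pos hj) (hi j)
    have h3 : x ∈ U i := by
      by_contra hcon
      rw [ff_zero hcon] at h2
      exact lt_irrefl _ h2
    exact subset_closure h3

theorem isClosed_Fst (U : Fin k → Set ℂ) (i : Fin k) : IsClosed {x | i ∈ Kst U x} := by
  have h1 : {x | i ∈ Kst U x} = closure (U i) ∩ ⋂ j, {x | ff U j x ≤ ff U i x} := by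
    ext x; simp [Kst, Pal]
  rw [h1]
  exact isClosed_closure.inter (isClosed_iInter fun j =>
    isClosed_le (continuous_ff j) (continuous_ff i))

/-- reduced palettes are upper semicontinuous -/
theorem Kst_nhd (U : Fin k → Set ℂ) (x : ℂ) : ∀ᶠ z in 𝓝 x, Kst U z ⊆ Kst U x := by
  have h1 : ∀ i, ∀ᶠ z in 𝓝 x, i ∈ Kst U z → i ∈ Kst U x := by
    intro i
    by_cases hx : i ∈ Kst U x
    · exact Eventually.of_forall fun z _ => hx
    · filter_upwards [(isClosed_Fst U i).isOpen_compl.mem_nhds hx] with z hz hz'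
      exact absurd hz' hz
  filter_upwards [eventually_all.2 h1] with z hz i hi
  exact hz i hi

/-- a unit pair with an end off `XX` has disjoint reduced palettes -/
theorem Mx.Kst_disj (h : Mx U) {x y : ℂ} (hxy : dist x y = 1) (hx : x ∉ XX U) :
    Disjoint (Kst U x) (Pal U y) := by
  rw [Set.disjoint_left]
  intro i hi hi'
  exact h.notMem' (h.Kst_mem hx hi) hxy hi'

/-- reduced palettes are not contained at distance one -/
theorem Mx.Kst_not_sub (h : Mx U) {x y : ℂ} (hxy : dist y x = 1)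
    (h3 : (Kst U x).ncard ≤ 3) : ¬ Kst U y ⊆ Kst U x := by
  intro hsub
  by_cases hx : x ∈ XX U
  · by_cases hy : y ∈ XX U
    · rw [Kst_XX hx, Kst_XX hy] at hsub
      rw [Kst_XX hx] at h3
      exact h.not_sub hx hxy h3 hsub
    · obtain ⟨i, hi⟩ := h.Kst_nonempty y
      exact Set.disjoint_left.1 (h.Kst_disj hxy hy) hi (Kst_sub x (hsub hi))
  · obtain ⟨i, hi⟩ := h.Kst_nonempty y
    exact Set.disjoint_left.1 (h.Kst_disj (by rw [dist_comm]; exact hxy) hx) (hsub hi)
      (Kst_sub y hi)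

/-- `Pal` version: if `|Kst x| ≤ 3` then no point of the circle has its full palette in `Kst x` -/
theorem Mx.Pal_not_sub (h : Mx U) {x y : ℂ} (hxy : dist y x = 1)
    (h3 : (Kst U x).ncard ≤ 3) : ¬ Pal U y ⊆ Kst U x :=
  fun hsub => h.Kst_not_sub hxy h3 ((Kst_sub y).trans hsub)

/-- a colour of `Kst x` is not the only colour of a point of the unit circle about `x` -/
theorem Mx.Kst_ne_single (h : Mx U) {x y : ℂ} {i : Fin k} (hi : i ∈ Kst U x)
    (hxy : dist y x = 1) : ∃ j ∈ Kst U y, j ≠ i := by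
  by_contra hcon
  push Not at hcon
  by_cases hy : y ∈ XX U
  · obtain ⟨j, hj, hji⟩ := h.two hy i
    exact hji (hcon j (by rw [Kst_XX hy]; exact hj))
  · obtain ⟨j, hj⟩ := h.Kst_nonempty y
    have h1 := hcon j hj
    subst h1
    exact Set.disjoint_left.1 (h.Kst_disj hxy hy) hj (Kst_sub x hi)

/-- the rotation by sixty degrees -/
theorem norm_w_sub : ‖cis (Real.pi / 3) - 1‖ = 1 := by
  have h1 : cis (Real.pi / 3) = ⟨1 / 2, Real.sqrt 3 / 2⟩ := by
    unfold cis
    rw [Complex.exp_mul_I]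
    apply Complex.ext
    · simp
      rw [← Complex.ofReal_ofNat, ← Complex.ofReal_div, ← Complex.ofReal_cos,
        ← Complex.ofReal_sin, Complex.ofReal_re, Complex.ofReal_im, Real.cos_pi_div_three]
      norm_num
    · simp
      rw [← Complex.ofReal_ofNat, ← Complex.ofReal_div, ← Complex.ofReal_cos,
        ← Complex.ofReal_sin, Complex.ofReal_re, Complex.ofReal_im, Real.sin_pi_div_three]
      norm_num
  have h2 : ‖cis (Real.pi / 3) - 1‖ ^ 2 = 1 := by
    rw [Complex.sq_norm, Complex.normSq_apply, h1]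
    simp
    have := Real.mul_self_sqrt (show (0 : ℝ) ≤ 3 by norm_num)
    nlinarith
  have h3 := norm_nonneg (cis (Real.pi / 3) - 1)
  nlinarith

/-- every point of a unit circle has a point of the circle at distance one -/
theorem exists_sixty {x y : ℂ} (hy : dist y x = 1) : ∃ y', dist y' x = 1 ∧ dist y' y = 1 := by
  have h0 : ‖y - x‖ = 1 := by rw [← dist_eq_norm]; exact hy
  refine ⟨x + cis (Real.pi / 3) * (y - x), ?_, ?_⟩
  · rw [dist_eq_norm, add_sub_cancel_left, norm_mul, norm_cis, h0, one_mul]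
  · rw [dist_eq_norm]
    have : x + cis (Real.pi / 3) * (y - x) - y = (cis (Real.pi / 3) - 1) * (y - x) := by ring
    rw [this, norm_mul, norm_w_sub, h0, one_mul]

theorem isPreconnected_circle (x : ℂ) : IsPreconnected (sphere x (1 : ℝ)) := by
  have h1 : sphere x (1 : ℝ) = (fun t => x + cis t) '' univ := by
    ext y
    constructor
    · intro hy
      obtain ⟨t, ht⟩ := exists_cis (u := y - x) (by rw [← dist_eq_norm]; exact hy)
      exact ⟨t, mem_univ _, by simp only; rw [← ht]; ring⟩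
    · rintro ⟨t, _, rfl⟩
      exact dist_add_cis x t
  rw [h1]
  exact isPreconnected_univ.image _ (continuous_const.add continuous_cis).continuousOn

/-- a unit circle is not covered by two of the closed sets -/
theorem Mx.no_two (h : Mx U) (x : ℂ) (e f : Fin k) (hef : ∀ y, dist y x = 1 → Pal U y ⊆ {e, f}) :
    False := by
  -- not only one colour
  have hone : ∀ g g' : Fin k, (∀ y, dist y x = 1 → Pal U y ⊆ {g, g'}) →
      (sphere x (1 : ℝ) ∩ closure (U g)).Nonempty := by
    intro g g' hg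
    by_contra hcon
    have key : ∀ y, dist y x = 1 → Pal U y ⊆ {g'} := by
      intro y hy m hm
      rcases hg y hy hm with rfl | h1
      · exact absurd ⟨y, hy, hm⟩ hcon
      · exact h1
    obtain ⟨y', hy', hyy⟩ := exists_sixty (dist_add_cis x 0)
    obtain ⟨j, hj⟩ := h.cover y'
    have h1 := key y' hy' hj
    rw [mem_singleton_iff] at h1
    subst h1
    exact h.notMem' (h.mem_of_pal (key _ (dist_add_cis x 0))) (by rw [dist_comm]; exact hyy) hj
  obtain ⟨y, hy, hye, hyf⟩ := isPreconnected_closed_iff.1 (isPreconnected_circle x)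
    (closure (U e)) (closure (U f)) isClosed_closure isClosed_closure (by
      intro y hy
      obtain ⟨j, hj⟩ := h.cover y
      rcases hef y hy hj with rfl | h1
      · exact Or.inl hj
      · rw [mem_singleton_iff] at h1
        subst h1
        exact Or.inr hj) (hone e f hef) (hone f e fun y hy => by
          rw [Set.pair_comm]; exact hef y hy)
  obtain ⟨y', hy', hyy⟩ := exists_sixty hy
  have hpy : Pal U y ⊆ {e, f} := hef y hy
  have hsub : Pal U y' ⊆ Pal U y := by
    intro m hm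
    rcases hef y' hy' hm with rfl | h1
    · exact hye
    · rw [mem_singleton_iff] at h1
      subst h1
      exact hyf
  by_cases hX : y ∈ XX U
  · refine h.not_sub hX hyy ?_ hsub
    have h2 := Set.ncard_le_ncard hpy (Set.toFinite _)
    have h3 := Set.ncard_insert_le e {f}
    rw [Set.ncard_singleton] at h3
    omega
  · have h1 : ∃ m, y ∈ U m := by
      by_contra hcon
      push Not at hcon
      exact hX hcon
    obtain ⟨m, hm⟩ := h1
    have hmy' : m ∉ Pal U y' := h.notMem' hm (by rw [dist_comm]; exact hyy)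
    have hm1 : m ∈ ({e, f} : Set (Fin k)) := hpy (subset_closure hm)
    obtain ⟨j, hj⟩ := h.cover y'
    have hj1 := hef y' hy' hj
    have hjm : j ≠ m := fun h2 => hmy' (h2 ▸ hj)
    have hall : Pal U y' ⊆ {j} := by
      intro l hl
      have hl1 := hef y' hy' hl
      have hlm : l ≠ m := fun h2 => hmy' (h2 ▸ hl)
      simp only [mem_insert_iff, mem_singleton_iff] at hl1 hj1 hm1 ⊢
      rcases hl1 with rfl | rfl <;> rcases hj1 with rfl | rfl <;> rcases hm1 with rfl | rfl <;>
        first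
        | rfl
        | exact absurd rfl hlm
        | exact absurd rfl hjm
    exact h.notMem' (h.mem_of_pal hall) hyy (hsub hj)

/-- at most three of the six open sets have a common point -/
theorem Mx.K0_three {U : Fin 6 → Set ℂ} (h : Mx U) (x : ℂ) : {i | x ∈ U i}.ncard ≤ 3 := by
  by_contra hcon
  push Not at hcon
  have h1 : ({i | x ∈ U i}ᶜ : Set (Fin 6)).ncard ≤ 2 := by
    have := Set.ncard_add_ncard_compl {i | x ∈ U i}
    rw [Nat.card_eq_fintype_card, Fintype.card_fin] at this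
    omega
  have h2 : ∃ e f : Fin 6, ({i | x ∈ U i}ᶜ : Set (Fin 6)) ⊆ {e, f} := by
    interval_cases hn : ({i | x ∈ U i}ᶜ : Set (Fin 6)).ncard
    · rw [Set.ncard_eq_zero (Set.toFinite _)] at hn
      exact ⟨0, 0, by rw [hn]; exact empty_subset _⟩
    · obtain ⟨a, ha⟩ := Set.ncard_eq_one.1 hn
      exact ⟨a, a, by rw [ha]; simp⟩
    · obtain ⟨a, b, _, hab⟩ := Set.ncard_eq_two.1 hn
      exact ⟨a, b, hab.subset⟩
  obtain ⟨e, f, hef⟩ := h2
  exact h.no_two x e f fun y hy i hi => hef fun hxi =>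
    h.notMem' hxi (by rw [dist_comm]; exact hy) hi

/-- off `XX` the reduced palette has at most three elements -/
theorem Mx.Kst_three {U : Fin 6 → Set ℂ} (h : Mx U) {x : ℂ} (hx : x ∉ XX U) :
    (Kst U x).ncard ≤ 3 :=
  (Set.ncard_le_ncard (fun _ hi => h.Kst_mem hx hi) (Set.toFinite _)).trans (h.K0_three x)

theorem Mx.Kst_le_three {U : Fin 6 → Set ℂ} (h : Mx U) {x : ℂ}
    (hx : x ∈ XX U → (Pal U x).ncard ≤ 3) : (Kst U x).ncard ≤ 3 := by
  by_cases hX : x ∈ XX U
  · rw [Kst_XX hX]; exact hx hX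
  · exact h.Kst_three hX

open Classical in
/-- the reduced palette as a finite set -/
def Ks (U : Fin k → Set ℂ) (x : ℂ) : Finset (Fin k) := Finset.univ.filter fun i => i ∈ Kst U x

theorem mem_Ks {x : ℂ} {i : Fin k} : i ∈ Ks U x ↔ i ∈ Kst U x := by simp [Ks]

theorem coe_Ks (U : Fin k → Set ℂ) (x : ℂ) : ((Ks U x : Finset (Fin k)) : Set (Fin k)) = Kst U x := by
  ext i
  rw [Finset.mem_coe, mem_Ks]

theorem Ks_card (U : Fin k → Set ℂ) (x : ℂ) : (Ks U x).card = (Kst U x).ncard := by
  rw [← coe_Ks, Set.ncard_coe_finset]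

theorem Ks_nhd (U : Fin k → Set ℂ) (x : ℂ) : ∀ᶠ y in 𝓝 x, Ks U y ⊆ Ks U x := by
  filter_upwards [Kst_nhd U x] with y hy i hi
  rw [mem_Ks] at hi ⊢
  exact hy hi

theorem Mx.Ks_nonempty (h : Mx U) (x : ℂ) : (Ks U x).Nonempty := by
  obtain ⟨i, hi⟩ := h.Kst_nonempty x
  exact ⟨i, mem_Ks.2 hi⟩

theorem Mx.Ks_three {U : Fin 6 → Set ℂ} (h : Mx U) {x : ℂ} (hx : x ∉ XX U) :
    (Ks U x).card ≤ 3 := by
  rw [Ks_card]; exact h.Kst_three hx

theorem Mx.Ks_le_three {U : Fin 6 → Set ℂ} (h : Mx U) {x : ℂ}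
    (hx : x ∈ XX U → (Pal U x).ncard ≤ 3) : (Ks U x).card ≤ 3 := by
  rw [Ks_card]; exact h.Kst_le_three hx

end Vale.Agent.P032.Six
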