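import Mathlib
import Vale.Agent.P032.Six.Star

/-!
# P032: Lemma X, Lemma B and [5] for the reduced palettes
-/

open Set Filter Topology Metric

noncomputable section

namespace Vale.Agent.P032.Six

variable {k : ℕ} {U : Fin k → Set ℂ}

theorem Mx.Pal_eq_Kst {x : ℂ} (hx : x ∈ XX U) : Pal U x = Kst U x := (Kst_XX hx).symm

/-- a common reduced colour at distance one: both points are in `X` -/
theorem Mx.mem_XX (h : Mx U) {x y : ℂ} (hxy : dist x y = 1) {i : Fin k} (hi : i ∈ Kst U x)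
    (hi' : i ∈ Kst U y) : x ∈ XX U ∧ y ∈ XX U := by
  refine ⟨?_, ?_⟩
  · by_contra hx
    exact Set.disjoint_left.1 (h.Kst_disj hxy hx) hi (Kst_sub y hi')
  · by_contra hy
    exact Set.disjoint_left.1 (h.Kst_disj (by rw [dist_comm]; exact hxy) hy) hi' (Kst_sub x hi)

/-- a reduced colour of `x` which is a colour of `y` at distance one: `x` is in `X` -/
theorem Mx.mem_XX_left (h : Mx U) {x y : ℂ} (hxy : dist x y = 1) {i : Fin k} (hi : i ∈ Kst U x)
    (hi' : i ∈ Pal U y) : x ∈ XX U := by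
  by_contra hx
  exact Set.disjoint_left.1 (h.Kst_disj hxy hx) hi hi'

/-- **[2]**, element form -/
theorem Mx.Kst_not_sub' (h : Mx U) {x y : ℂ} (hxy : dist y x = 1) (h3 : (Kst U x).ncard ≤ 3) :
    ∃ t ∈ Kst U y, t ∉ Kst U x := by
  by_contra hcon
  push Not at hcon
  exact h.Kst_not_sub hxy h3 hcon

/-- **Lemma X**, first part -/
theorem Mx.Kst_arc (h : Mx U) {u p : ℂ} {t : Fin k} (h3 : (Kst U u).ncard ≤ 3)
    (ht : Kst U p ⊆ insert t (Kst U u)) : ∀ᶠ q in 𝓝[sphere u 1] p, t ∈ Kst U q := by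
  filter_upwards [mem_nhdsWithin_of_mem_nhds (Kst_nhd U p), self_mem_nhdsWithin] with q h1 h2
  obtain ⟨s, hs, hsu⟩ := h.Kst_not_sub' (x := u) (y := q) h2 h3
  rcases ht (h1 hs) with rfl | h4
  · exact hs
  · exact absurd h4 hsu

/-- **Lemma X** for the reduced palettes -/
theorem Mx.Kst_lemmaX (h : Mx U) {u p v : ℂ} {t : Fin k} (hup : dist p u = 1)
    (h3 : (Kst U u).ncard ≤ 3) (ht : Kst U p ⊆ insert t (Kst U u)) (hv : dist p v = 1)
    (htv : t ∈ Pal U v) : v = u ∨ v + u = 2 * p :=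
  h.partner_line hup ((h.Kst_arc h3 ht).mono fun q hq => Kst_sub q hq) hv htv

/-- a point with one reduced colour is in the open set -/
theorem Mx.mem_U_of_Kst (h : Mx U) {i : Fin k} {x : ℂ} (hx : Kst U x ⊆ {i}) : x ∈ U i := by
  by_cases hX : x ∈ XX U
  · refine h.mem_of_pal ?_
    rw [← Kst_XX hX]
    exact hx
  · obtain ⟨j, hj⟩ := h.Kst_nonempty x
    have := hx hj
    rw [Set.mem_singleton_iff] at this
    exact this ▸ h.Kst_mem hX hj

/-- along the circle about a point of `F_i`, close to an `ij`-point, there is the colour `j` -/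
theorem Mx.Kst_arcB (h : Mx U) {x y : ℂ} {i j : Fin k} (hx : Kst U x ⊆ {i, j})
    (hi : i ∈ Pal U y) : ∀ᶠ q in 𝓝[sphere y 1] x, j ∈ Kst U q := by
  filter_upwards [mem_nhdsWithin_of_mem_nhds (Kst_nhd U x), self_mem_nhdsWithin] with q h1 h2
  by_contra hcon
  refine h.notMem' (h.mem_U_of_Kst (i := i) fun m hm => ?_) (h2 : dist q y = 1) hi
  rcases hx (h1 hm) with h3 | h3
  · exact h3
  · exact absurd (h3 ▸ hm) hcon

/-- **Lemma B** for the reduced palettes -/
theorem Mx.Kst_lemmaB (h : Mx U) {x y y' : ℂ} {i j : Fin k} (hx : Kst U x ⊆ {i, j})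
    (hy : dist x y = 1) (hy' : dist x y' = 1) (hi : i ∈ Pal U y) (hj : j ∈ Pal U y') :
    y' = y ∨ y' + y = 2 * x :=
  h.partner_line (u := y) (p := x) (t := j) hy
    ((h.Kst_arcB hx hi).mono fun q hq => Kst_sub q hq) hy' hj

/-- **[5]** for the reduced palettes -/
theorem Mx.Kst_five (h : Mx U) {u u' q : ℂ} (h3' : (Kst U u').ncard ≤ 3)
    (hcov : ∀ i, i ∈ Kst U u ∨ i ∈ Kst U u') (hne : u ≠ u')
    (hq : dist q u = 1) (hq' : dist q u' = 1) (hne2 : u + u' ≠ 2 * q) (s : Fin k) :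
    ∃ t ∈ Kst U q, t ∈ Kst U u ∧ t ≠ s := by
  by_contra hcon
  push Not at hcon
  have hsub : Kst U q ⊆ insert s (Kst U u') := by
    intro m hm
    rcases hcov m with h1 | h1
    · exact Or.inl (hcon m hm h1)
    · exact Or.inr h1
  by_cases hsu : s ∈ Kst U u
  · rcases h.Kst_lemmaX hq' h3' hsub hq (Kst_sub u hsu) with h1 | h1
    · exact hne h1
    · exact hne2 h1
  · refine h.Kst_not_sub hq' h3' fun m hm => ?_
    rcases hcov m with h1 | h1
    · exact absurd (hcon m hm h1 ▸ h1) hsu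
    · exact h1

/-- complementary reduced palettes of size at most three: any point at distance one from both
has at least four colours -/
theorem Mx.Kst_five_card (h : Mx U) {u u' q : ℂ} (h3 : (Kst U u).ncard ≤ 3)
    (h3' : (Kst U u').ncard ≤ 3) (hcov : ∀ i, i ∈ Kst U u ∨ i ∈ Kst U u')
    (hdis : ∀ i, i ∈ Kst U u → i ∉ Kst U u') (hne : u ≠ u')
    (hq : dist q u = 1) (hq' : dist q u' = 1) (hne2 : u + u' ≠ 2 * q) :
    4 ≤ (Kst U q).ncard := by
  obtain ⟨s0, -⟩ := h.Kst_nonempty q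
  obtain ⟨a, haq, hau, -⟩ := h.Kst_five h3' hcov hne hq hq' hne2 s0
  obtain ⟨b, hbq, hbu, hba⟩ := h.Kst_five h3' hcov hne hq hq' hne2 a
  have hcov' : ∀ i, i ∈ Kst U u' ∨ i ∈ Kst U u := fun i => (hcov i).symm
  obtain ⟨c, hcq, hcu, -⟩ := h.Kst_five h3 hcov' hne.symm hq' hq (by rwa [add_comm]) s0
  obtain ⟨d, hdq, hdu, hdc⟩ := h.Kst_five h3 hcov' hne.symm hq' hq (by rwa [add_comm]) c
  have hac : a ≠ c := fun e => hdis a hau (e ▸ hcu)
  have had : a ≠ d := fun e => hdis a hau (e ▸ hdu)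
  have hbc : b ≠ c := fun e => hdis b hbu (e ▸ hcu)
  have hbd : b ≠ d := fun e => hdis b hbu (e ▸ hdu)
  have hsub : ((({a, b, c, d} : Finset (Fin k)) : Set (Fin k))) ⊆ Kst U q := by
    intro m hm
    simp only [Finset.coe_insert, Finset.coe_singleton, mem_insert_iff, mem_singleton_iff] at hm
    rcases hm with rfl | rfl | rfl | rfl <;> assumption
  have hcard : ({a, b, c, d} : Finset (Fin k)).card = 4 := by
    rw [Finset.card_insert_of_notMem, Finset.card_insert_of_notMem,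
      Finset.card_insert_of_notMem, Finset.card_singleton] <;>
      simp [hba.symm, hac, had, hbc, hbd, hdc.symm]
  have := Set.ncard_le_ncard hsub (Set.toFinite _)
  rwa [Set.ncard_coe_finset, hcard] at this

end Vale.Agent.P032.Six
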