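import Vale.Agent.P032.Six.Max

/-!
# P032: the fullness lemma

A connected closed subset `Q` of `F_i` and a point `g` of a bounded component of `ℂ \ Q`:
the unit circle about `g` carries no colour `i`.
-/

open Set Filter Topology Metric

noncomputable section

namespace Vale.Agent.P032.Six

variable {k : ℕ} {U : Fin k → Set ℂ}

/-- a ray which starts in a bounded component of the complement of `Q` meets `Q` -/
theorem exists_ray_mem {Q : Set ℂ} {g : ℂ} (hg : g ∉ Q)
    (hb : Bornology.IsBounded (connectedComponentIn Qᶜ g)) {v : ℂ} (hv : v ≠ 0) :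
    ∃ t : ℝ, 0 < t ∧ g + t * v ∈ Q := by
  by_contra hcon
  push Not at hcon
  have hcont : Continuous fun t : ℝ => g + t * v := by fun_prop
  have hpre : IsPreconnected ((fun t : ℝ => g + t * v) '' Ici 0) :=
    (isPreconnected_Ici).image _ hcont.continuousOn
  have hsub : (fun t : ℝ => g + t * v) '' Ici 0 ⊆ Qᶜ := by
    rintro _ ⟨t, ht, rfl⟩
    rcases (mem_Ici.1 ht).eq_or_lt with h | h
    · rw [← h]; simpa using hg
    · exact hcon t h
  have hmem : g ∈ (fun t : ℝ => g + t * v) '' Ici 0 := ⟨0, by simp, by simp⟩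
  have h1 := hpre.subset_connectedComponentIn hmem hsub
  obtain ⟨R, hR⟩ := (Metric.isBounded_iff_subset_closedBall g).1 hb
  have hv' : 0 < ‖v‖ := norm_pos_iff.2 hv
  have h2 : g + ((|R| + 1) / ‖v‖ : ℝ) * v ∈ closedBall g R :=
    hR (h1 ⟨(|R| + 1) / ‖v‖, mem_Ici.2 (by positivity), rfl⟩)
  rw [mem_closedBall, dist_eq_norm, add_sub_cancel_left, norm_mul, Complex.norm_real,
    Real.norm_eq_abs, abs_of_pos (by positivity), div_mul_cancel₀ _ hv'.ne'] at h2
  have := le_abs_self R
  linarith

/-- connected subsets of `F_i` have diameter at most one -/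
theorem Mx.dist_le_one (h : Mx U) {i : Fin k} {Q : Set ℂ} (hQ : IsPreconnected Q)
    (hQF : Q ⊆ closure (U i)) {p q : ℂ} (hp : p ∈ Q) (hq : q ∈ Q) : dist p q ≤ 1 := by
  by_contra hcon
  push Not at hcon
  exact h.wlemma hQ hQF (z := p) hp hq (by simp) (by rwa [dist_comm]) (hQF hp)

/-- **Fullness lemma**: if `g` lies in a bounded component of the complement of a connected
subset of `F_i`, then the unit circle about `g` carries no colour `i`. -/
theorem Mx.full (h : Mx U) {i : Fin k} {Q : Set ℂ} (hQ : IsPreconnected Q)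
    (hQF : Q ⊆ closure (U i)) {g : ℂ} (hg : g ∉ Q)
    (hb : Bornology.IsBounded (connectedComponentIn Qᶜ g)) {p : ℂ} (hp : i ∈ Pal U p) :
    dist g p ≠ 1 := by
  intro hgp
  have hne : p - g ≠ 0 := by
    intro h0
    rw [dist_comm, dist_eq_norm, h0, norm_zero] at hgp
    exact zero_ne_one hgp
  have hn : ‖p - g‖ = 1 := by rw [← dist_eq_norm, dist_comm]; exact hgp
  obtain ⟨t1, ht1, h1⟩ := exists_ray_mem hg hb (neg_ne_zero.2 hne)
  obtain ⟨t2, ht2, h2⟩ := exists_ray_mem hg hb hne
  -- distances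
  have d1 : dist (g + t1 * -(p - g)) p = 1 + t1 := by
    rw [dist_eq_norm]
    have : g + t1 * -(p - g) - p = (-(1 + t1) : ℝ) * (p - g) := by push_cast; ring
    rw [this, norm_mul, hn, mul_one, Complex.norm_real, Real.norm_eq_abs, abs_neg,
      abs_of_pos (by linarith)]
  have d2 : dist (g + t2 * (p - g)) p = |t2 - 1| := by
    rw [dist_eq_norm]
    have : g + t2 * (p - g) - p = ((t2 - 1 : ℝ) : ℂ) * (p - g) := by push_cast; ring
    rw [this, norm_mul, hn, mul_one, Complex.norm_real, Real.norm_eq_abs]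
  have d12 : dist (g + t1 * -(p - g)) (g + t2 * (p - g)) = t1 + t2 := by
    rw [dist_eq_norm]
    have : g + t1 * -(p - g) - (g + t2 * (p - g)) = (-(t1 + t2) : ℝ) * (p - g) := by
      push_cast; ring
    rw [this, norm_mul, hn, mul_one, Complex.norm_real, Real.norm_eq_abs, abs_neg,
      abs_of_pos (by linarith)]
  have hle := h.dist_le_one hQ hQF h1 h2
  rw [d12] at hle
  refine h.wlemma hQ hQF (z := p) h2 h1 ?_ ?_ hp
  · rw [d2, abs_lt]; constructor <;> linarith
  · rw [d1]; linarith

end Vale.Agent.P032.Six
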